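import Vale.Agent.P043.Defs

/-!
# P043: tiles of prime cardinality, all levels, all finitely generated abelian groups,
stated with Mathlib notions only
-/

namespace Vale.Agent.Results.P043.PrimeAllLevelsPlain

open Vale.Agent.P043

/-- (1) In every dimension `d`: if `F` is a finite subset of `ℤ^d` of prime cardinality `p` and
`A ⊕ F = ℤ^d`, then `A + p (f - f') = A` for all `f, f' ∈ F`, and there are a set `A'` with
`A' ⊕ F = ℤ^d` and a finite index subgroup `L` of `ℤ^d` with `A' + h = A'` for all `h ∈ L`.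

(2) The same in every finitely generated abelian group `G` and for tilings of every level `k`
(every point has exactly `k` expressions `a + f`). -/
theorem result :
    (∀ (d : ℕ) (F : Finset (Fin d → ℤ)) (A : Set (Fin d → ℤ)), F.card.Prime →
      (∀ g : Fin d → ℤ, ∃! q : (Fin d → ℤ) × (Fin d → ℤ), q.1 ∈ A ∧ q.2 ∈ F ∧ q.1 + q.2 = g) →
      (∀ f ∈ F, ∀ f' ∈ F, ∀ a : Fin d → ℤ, a + F.card • (f - f') ∈ A ↔ a ∈ A) ∧
      ∃ A' : Set (Fin d → ℤ),
        (∀ g : Fin d → ℤ, ∃! q : (Fin d → ℤ) × (Fin d → ℤ), q.1 ∈ A' ∧ q.2 ∈ F ∧ q.1 + q.2 = g) ∧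
        ∃ L : AddSubgroup (Fin d → ℤ), L.FiniteIndex ∧
          ∀ h ∈ L, ∀ a : Fin d → ℤ, a + h ∈ A' ↔ a ∈ A') ∧
    (∀ (G : Type) [AddCommGroup G] [AddGroup.FG G] (k : ℕ) (F : Finset G) (A : Set G),
      F.card.Prime →
      (∀ g : G, {q : G × G | q.1 ∈ A ∧ q.2 ∈ F ∧ q.1 + q.2 = g}.ncard = k) →
      (∀ f ∈ F, ∀ f' ∈ F, ∀ a : G, a + F.card • (f - f') ∈ A ↔ a ∈ A) ∧
      ∃ A' : Set G,
        (∀ g : G, {q : G × G | q.1 ∈ A' ∧ q.2 ∈ F ∧ q.1 + q.2 = g}.ncard = k) ∧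
        ∃ L : AddSubgroup G, L.FiniteIndex ∧ ∀ h ∈ L, ∀ a : G, a + h ∈ A' ↔ a ∈ A') := by
  refine ⟨?_, ?_⟩
  · intro d F A hF hA
    have : AddGroup.FG (Fin d → ℤ) := Module.Finite.iff_addGroup_fg.mp inferInstance
    have hA' : IsTiling A F := hA
    obtain ⟨h1, A', hA'', hper⟩ := prime_level hF (isTiling_iff_level_one.1 hA')
    exact ⟨h1, A', isTiling_iff_level_one.2 hA'', hper⟩
  · intro G _ _ k F A hF hA
    have hA' : IsLevelTiling k A F := hA
    exact prime_level hF hA'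

end Vale.Agent.Results.P043.PrimeAllLevelsPlain
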