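import Vale.Agent.P043.Defs

/-!
# P043: tiles of prime cardinality, tilings of any level, in every finitely generated abelian group
-/

namespace Vale.Agent.Results.P043.PrimeMultiTile

open Vale.Agent.P043

/-- Let `G` be a finitely generated abelian group (for instance `ℤ^d`), `F` a finite subset of prime
cardinality `p` and `A` a tiling of level `k` by `F` (every point is covered exactly `k` times by the
translates `a + F`, `a ∈ A`).  Then `A` is invariant under `p (f - f')` for all `f, f' ∈ F`, and
there is a periodic tiling of level `k` by `F`. -/
theorem result {G : Type*} [AddCommGroup G] [AddGroup.FG G] (k : ℕ) (A : Set G) (F : Finset G)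
    (hF : F.card.Prime) (hA : IsLevelTiling k A F) :
    (∀ f ∈ F, ∀ f' ∈ F, ∀ a : G, a + F.card • (f - f') ∈ A ↔ a ∈ A) ∧
      ∃ A' : Set G, IsLevelTiling k A' F ∧ IsPeriodic A' :=
  prime_level hF hA

end Vale.Agent.Results.P043.PrimeMultiTile
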