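import Vale.Agent.P043.Defs

/-!
# P043: the periodic tiling conjecture for tiles of prime cardinality in every dimension
-/

namespace Vale.Agent.Results.P043.PrimeTile

open Vale.Agent.P043

/-- In every dimension `d`, a finite tile `F` of `ℤ^d` of prime cardinality `p` admits a periodic
tiling; moreover every tiling `A` by `F` is invariant under `p (f - f')` for all `f, f' ∈ F`. -/
theorem result (d : ℕ) (F : Finset (Fin d → ℤ)) (hF : F.card.Prime) (A : Set (Fin d → ℤ))
    (hA : IsTiling A F) :
    (∀ f ∈ F, ∀ f' ∈ F, ∀ a : Fin d → ℤ, a + F.card • (f - f') ∈ A ↔ a ∈ A) ∧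
      ∃ A' : Set (Fin d → ℤ), IsTiling A' F ∧ IsPeriodic A' := by
  have : AddGroup.FG (Fin d → ℤ) := Module.Finite.iff_addGroup_fg.mp inferInstance
  obtain ⟨h1, A', hA', hper⟩ := prime_level hF (isTiling_iff_level_one.1 hA)
  exact ⟨h1, A', isTiling_iff_level_one.2 hA', hper⟩

end Vale.Agent.Results.P043.PrimeTile
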